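import Vale.Agent.P004H.H666.Hasse4
import Vale.Agent.P004H.H742.Glue

/-!
Hasse's bound for `y² + y = x³ - x² - 10 x - 20`.
-/

namespace Vale.Agent.P004H.H666

open Vale.Agent.P004H.H742

lemma cast_ne {p n : ℕ} (h : ¬ p ∣ n) : ((n : ℕ) : ZMod p) ≠ 0 := by
  intro h0
  rw [ZMod.natCast_eq_zero_iff] at h0
  exact h h0

/-- the Hasse bound for `X_0(11)` -/
theorem hasse_cnt : ∀ p : ℕ, p.Prime → 5 ≤ p → p ≠ 11 → ((p : ℤ) - cnt p) ^ 2 ≤ 4 * p := by
  intro p hp h5 h11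
  have : Fact p.Prime := ⟨hp⟩
  have hchar : ringChar (ZMod p) ≠ 2 := by
    rw [ZMod.ringChar_zmod_n]; omega
  have hd2 : ¬ p ∣ 2 := fun h => by have := Nat.le_of_dvd (by norm_num) h; omega
  have hd3 : ¬ p ∣ 3 := fun h => by have := Nat.le_of_dvd (by norm_num) h; omega
  have hd11 : ¬ p ∣ 11 := fun h =>
    h11 ((Nat.prime_dvd_prime_iff_eq hp (by norm_num)).1 h)
  have h2 := cast_ne hd2
  have h3 := cast_ne hd3
  have h11' := cast_ne hd11
  push_cast at h2 h3 h11'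
  have h36 : (36 : ZMod p) ≠ 0 := by
    have : (36 : ZMod p) = 2 ^ 2 * 3 ^ 2 := by norm_num
    rw [this]
    exact mul_ne_zero (pow_ne_zero _ h2) (pow_ne_zero _ h3)
  have h108 : (108 : ZMod p) ≠ 0 := by
    have : (108 : ZMod p) = 2 ^ 2 * 3 ^ 3 := by norm_num
    rw [this]
    exact mul_ne_zero (pow_ne_zero _ h2) (pow_ne_zero _ h3)
  have hD : (4 * (-13392) ^ 3 + 27 * (-1080432) ^ 2 : ZMod p) ≠ 0 := by
    have : (4 * (-13392) ^ 3 + 27 * (-1080432) ^ 2 : ZMod p) = 2 ^ 8 * 3 ^ 12 * 11 ^ 5 := by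
      norm_num
    rw [this]
    exact mul_ne_zero (mul_ne_zero (pow_ne_zero _ h2) (pow_ne_zero _ h3)) (pow_ne_zero _ h11')
  rw [cnt_char (by omega), neg_sq]
  have e : ∑ t : ZMod p, quadraticChar (ZMod p) (4 * t ^ 3 - 4 * t ^ 2 - 40 * t - 79) =
      ∑ x : ZMod p, quadraticChar (ZMod p) (x ^ 3 + (-13392) * x + (-1080432)) := by
    refine Fintype.sum_bijective (fun t => 36 * t - 12) ?_ _ _ ?_
    · refine Finite.injective_iff_bijective.1 fun t s h => mul_left_cancel₀ h36 ?_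
      linear_combination h
    · intro t
      have : (36 * t - 12) ^ 3 + (-13392) * (36 * t - 12) + (-1080432) =
          108 ^ 2 * (4 * t ^ 3 - 4 * t ^ 2 - 40 * t - 79) := by ring
      rw [this, map_mul, quadraticChar_sq_one' h108, one_mul]
  rw [e]
  have := hasse_char hchar hD
  rwa [ZMod.card] at this

end Vale.Agent.P004H.H666
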