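import Mathlib

/-!
The x-coordinates of `P + Q` and `P - Q` on `y² = x³ + A x + B`, projective form.
-/

namespace Vale.Agent.P004H.H666

open WeierstrassCurve WeierstrassCurve.Affine

variable {F : Type*} [Field F] [DecidableEq F]

/-- the curve `y² = x³ + A x + B` -/
abbrev crv (A B : F) : WeierstrassCurve.Affine F := ⟨0, 0, 0, A, B⟩

variable {A B : F}

/-- projective x-coordinate, first entry -/
noncomputable def xp (P : (crv A B).Point) : F := P.xRep 0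
/-- projective x-coordinate, second entry -/
noncomputable def zp (P : (crv A B).Point) : F := P.xRep 1

omit [DecidableEq F] in
@[simp] lemma xp_zero : xp (0 : (crv A B).Point) = 1 := rfl
omit [DecidableEq F] in
@[simp] lemma zp_zero : zp (0 : (crv A B).Point) = 0 := rfl
omit [DecidableEq F] in
@[simp] lemma xp_some {x y : F} (h : (crv A B).Nonsingular x y) : xp (Point.some x y h) = x := rfl
omit [DecidableEq F] in
@[simp] lemma zp_some {x y : F} (h : (crv A B).Nonsingular x y) : zp (Point.some x y h) = 1 := rfl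
omit [DecidableEq F] in
@[simp] lemma xp_neg (P : (crv A B).Point) : xp (-P) = xp P := by
  unfold xp; rw [Point.xRep_neg]
omit [DecidableEq F] in
@[simp] lemma zp_neg (P : (crv A B).Point) : zp (-P) = zp P := by
  unfold zp; rw [Point.xRep_neg]

omit [DecidableEq F] in
lemma eqn {x y : F} (h : (crv A B).Nonsingular x y) : y ^ 2 = x ^ 3 + A * x + B := by
  have := (equation_iff x y).1 h.1
  simpa using this

omit [DecidableEq F] in
lemma nsg {x y : F} (h : (crv A B).Nonsingular x y) : 3 * x ^ 2 + A ≠ 0 ∨ 2 * y ≠ 0 := by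
  have := ((nonsingular_iff' x y).1 h).2
  simp only [zero_mul, mul_zero, add_zero, zero_sub, ne_eq, neg_eq_zero] at this
  exact this

/-- the relation -/
def Rl (A B x₁ z₁ x₂ z₂ xa za xb zb : F) : Prop :=
  ∃ μ : F, μ ≠ 0 ∧
    xa * xb = μ * ((x₁ * x₂ - A * z₁ * z₂) ^ 2 - 4 * B * (x₁ * z₂ + z₁ * x₂) * (z₁ * z₂)) ∧
    xa * zb + za * xb = μ * (2 * (x₁ * x₂ + A * z₁ * z₂) * (x₁ * z₂ + z₁ * x₂) +
      4 * B * (z₁ * z₂) ^ 2) ∧
    za * zb = μ * (x₁ * z₂ - z₁ * x₂) ^ 2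

omit [DecidableEq F] in
lemma rl_generic {x₁ y₁ x₂ y₂ : F} (h₁ : y₁ ^ 2 = x₁ ^ 3 + A * x₁ + B)
    (h₂ : y₂ ^ 2 = x₂ ^ 3 + A * x₂ + B) (hx : x₁ ≠ x₂) :
    Rl A B x₁ 1 x₂ 1 (((y₁ - y₂) / (x₁ - x₂)) ^ 2 - x₁ - x₂) 1
      (((y₁ + y₂) / (x₁ - x₂)) ^ 2 - x₁ - x₂) 1 := by
  have hd : x₁ - x₂ ≠ 0 := sub_ne_zero.2 hx
  have e1 : ((y₁ - y₂) / (x₁ - x₂)) ^ 2 - x₁ - x₂ =
      ((y₁ - y₂) ^ 2 - (x₁ + x₂) * (x₁ - x₂) ^ 2) / (x₁ - x₂) ^ 2 := by
    field_simp; ring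
  have e2 : ((y₁ + y₂) / (x₁ - x₂)) ^ 2 - x₁ - x₂ =
      ((y₁ + y₂) ^ 2 - (x₁ + x₂) * (x₁ - x₂) ^ 2) / (x₁ - x₂) ^ 2 := by
    field_simp; ring
  refine ⟨1 / (x₁ - x₂) ^ 2, div_ne_zero one_ne_zero (pow_ne_zero 2 hd), ?_, ?_, ?_⟩
  · rw [e1, e2, div_mul_div_comm, div_eq_iff (mul_ne_zero (pow_ne_zero 2 hd) (pow_ne_zero 2 hd))]
    have : 1 / (x₁ - x₂) ^ 2 * ((x₁ * x₂ - A * 1 * 1) ^ 2 - 4 * B * (x₁ * 1 + 1 * x₂) * (1 * 1)) *
        ((x₁ - x₂) ^ 2 * (x₁ - x₂) ^ 2) =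
        ((x₁ * x₂ - A) ^ 2 - 4 * B * (x₁ + x₂)) * (x₁ - x₂) ^ 2 := by
      field_simp
    rw [this]
    linear_combination ((y₁ ^ 2 - y₂ ^ 2 + (x₁ ^ 3 + A * x₁ + B) - (x₂ ^ 3 + A * x₂ + B)) -
      2 * (x₁ + x₂) * (x₁ - x₂) ^ 2) * h₁ + (-(y₁ ^ 2 - y₂ ^ 2 + (x₁ ^ 3 + A * x₁ + B) -
      (x₂ ^ 3 + A * x₂ + B)) - 2 * (x₁ + x₂) * (x₁ - x₂) ^ 2) * h₂
  · rw [e1, e2, mul_one, one_mul, ← add_div, div_eq_iff (pow_ne_zero 2 hd)]
    have : 1 / (x₁ - x₂) ^ 2 * (2 * (x₁ * x₂ + A * 1 * 1) * (x₁ * 1 + 1 * x₂) +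
        4 * B * (1 * 1) ^ 2) * (x₁ - x₂) ^ 2 = 2 * (x₁ * x₂ + A) * (x₁ + x₂) + 4 * B := by
      field_simp
    rw [this]
    linear_combination 2 * h₁ + 2 * h₂
  · field_simp

omit [DecidableEq F] in
lemma Rl.symm {x₁ z₁ x₂ z₂ xa za xb zb : F} (h : Rl A B x₁ z₁ x₂ z₂ xa za xb zb) :
    Rl A B x₁ z₁ x₂ z₂ xb zb xa za := by
  obtain ⟨μ, h0, h1, h2, h3⟩ := h
  exact ⟨μ, h0, by rw [mul_comm, h1], by rw [← h2]; ring, by rw [mul_comm, h3]⟩

/-- the double of a point -/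
lemma rl_double (h2 : (2 : F) ≠ 0) {x y : F} (h : (crv A B).Nonsingular x y) :
    Rl A B x 1 x 1 (xp (Point.some x y h + Point.some x y h))
      (zp (Point.some x y h + Point.some x y h)) 1 0 := by
  have he := eqn h
  by_cases hy : y = 0
  · have hn : 3 * x ^ 2 + A ≠ 0 := by
      rcases nsg h with h' | h'
      · exact h'
      · exact absurd (by rw [hy, mul_zero]) h'
    have e : Point.some x y h + Point.some x y h = 0 :=
      Point.add_self_of_Y_eq (by simp [negY, hy])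
    rw [e, xp_zero, zp_zero]
    have h0 : x ^ 3 + A * x + B = 0 := by rw [← he, hy]; ring
    refine ⟨1 / (3 * x ^ 2 + A) ^ 2, div_ne_zero one_ne_zero (pow_ne_zero 2 hn), ?_, ?_, ?_⟩
    · have : (x * x - A * 1 * 1) ^ 2 - 4 * B * (x * 1 + 1 * x) * (1 * 1) =
          (3 * x ^ 2 + A) ^ 2 := by linear_combination -8 * x * h0
      rw [this]
      field_simp
    · have : 2 * (x * x + A * 1 * 1) * (x * 1 + 1 * x) + 4 * B * (1 * 1) ^ 2 = 0 := by
        linear_combination 4 * h0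
      rw [this]; ring
    · ring
  · have hyn : y ≠ (crv A B).negY x y := by
      simp only [negY, zero_mul, sub_zero, ne_eq]
      intro h'
      have : 2 * y = 0 := by linear_combination h'
      exact (mul_ne_zero h2 hy) this
    have e := Point.add_self_of_Y_ne (h₁ := h) hyn
    rw [e, xp_some, zp_some]
    have hs : (crv A B).slope x x y y = (3 * x ^ 2 + A) / (2 * y) := by
      rw [slope_of_Y_ne rfl hyn]
      simp only [negY, mul_zero, zero_mul, add_zero, sub_zero]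
      congr 1
      ring
    have hX : (crv A B).addX x x ((crv A B).slope x x y y) =
        ((3 * x ^ 2 + A) / (2 * y)) ^ 2 - x - x := by
      rw [addX, hs]; simp
    rw [hX]
    refine ⟨1 / (2 * y) ^ 2, div_ne_zero one_ne_zero (pow_ne_zero 2 (mul_ne_zero h2 hy)), ?_, ?_, ?_⟩
    · have : (x * x - A * 1 * 1) ^ 2 - 4 * B * (x * 1 + 1 * x) * (1 * 1) =
          (3 * x ^ 2 + A) ^ 2 - 2 * x * (2 * y) ^ 2 := by linear_combination 8 * x * he
      rw [this]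
      field_simp
      ring
    · have : 2 * (x * x + A * 1 * 1) * (x * 1 + 1 * x) + 4 * B * (1 * 1) ^ 2 = (2 * y) ^ 2 := by
        linear_combination -4 * he
      rw [this]
      field_simp
      ring
    · ring

/-- **the x-coordinates of `P + Q` and `P - Q`** -/
theorem rl_point (h2 : (2 : F) ≠ 0) (P Q : (crv A B).Point) :
    Rl A B (xp P) (zp P) (xp Q) (zp Q) (xp (P + Q)) (zp (P + Q)) (xp (P - Q)) (zp (P - Q)) := by
  match P, Q with
  | .zero, Q =>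
    change Rl A B (xp (0 : (crv A B).Point)) (zp (0 : (crv A B).Point)) (xp Q) (zp Q)
      (xp (0 + Q)) (zp (0 + Q)) (xp (0 - Q)) (zp (0 - Q))
    rw [zero_add, zero_sub, xp_neg, zp_neg, xp_zero, zp_zero]
    exact ⟨1, one_ne_zero, by ring, by ring, by ring⟩
  | .some x₁ y₁ h₁, .zero =>
    change Rl A B _ _ (xp (0 : (crv A B).Point)) (zp (0 : (crv A B).Point))
      (xp (_ + 0)) (zp (_ + 0)) (xp (_ - 0)) (zp (_ - 0))
    rw [add_zero, sub_zero, xp_zero, zp_zero]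
    exact ⟨1, one_ne_zero, by ring, by ring, by ring⟩
  | .some x₁ y₁ h₁, .some x₂ y₂ h₂ =>
    by_cases hx : x₁ = x₂
    · rcases Point.X_eq_iff.1 hx with h | h
      · rw [← h, sub_self, xp_zero, zp_zero, xp_some, zp_some]
        exact rl_double h2 h₁
      · have h' : Point.some x₂ y₂ h₂ = -Point.some x₁ y₁ h₁ := by rw [h, neg_neg]
        rw [h', xp_neg, zp_neg, add_neg_cancel, sub_neg_eq_add, xp_zero, zp_zero, xp_some, zp_some]
        exact (rl_double h2 h₁).symm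
    · rw [sub_eq_add_neg, Point.neg_some, Point.add_of_X_ne hx, Point.add_of_X_ne hx]
      simp only [xp_some, zp_some]
      have := rl_generic (eqn h₁) (eqn h₂) hx
      convert this using 1
      · rw [addX, slope_of_X_ne hx]; simp
      · rw [addX, slope_of_X_ne hx]; simp [negY]

end Vale.Agent.P004H.H666
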