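import Vale.Agent.P004H.H666.Hasse1

/-!
Polynomial part of Manin's proof of the Hasse bound: the three forms, primitive triples, degrees.
-/

namespace Vale.Agent.P004H.H666

open Polynomial

variable {k : Type*} [Field k]

/-- first form -/
noncomputable def pA (a b : k) (f g : k[X]) : k[X] :=
  (f * X - C a * g) ^ 2 - 4 * C b * (f + g * X) * g
/-- second form -/
noncomputable def pB (a b : k) (f g : k[X]) : k[X] :=
  2 * (f * X + C a * g) * (f + g * X) + 4 * C b * g ^ 2
/-- third form -/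
noncomputable def pC (f g : k[X]) : k[X] := (f - g * X) ^ 2

/-- no common prime factor -/
def Prm (u v w : k[X]) : Prop := ∀ π : k[X], Prime π → π ∣ u → π ∣ v → π ∣ w → False

lemma not_dvd_both {f g π : k[X]} (h : IsCoprime f g) (hπ : Prime π) (h1 : π ∣ f) (h2 : π ∣ g) :
    False :=
  hπ.not_isUnit (h.isUnit_of_dvd' h1 h2)

lemma prm_prod {f₁ g₁ f₂ g₂ : k[X]} (h₁ : IsCoprime f₁ g₁) (h₂ : IsCoprime f₂ g₂) :
    Prm (f₁ * f₂) (f₁ * g₂ + g₁ * f₂) (g₁ * g₂) := by
  intro π hπ ha hb hc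
  rcases hπ.dvd_or_dvd ha with h | h
  · have h3 : π ∣ g₁ * f₂ := (dvd_add_right (h.mul_right g₂)).1 hb
    rcases hπ.dvd_or_dvd h3 with h4 | h4
    · exact not_dvd_both h₁ hπ h h4
    · rcases hπ.dvd_or_dvd hc with h5 | h5
      · exact not_dvd_both h₁ hπ h h5
      · exact not_dvd_both h₂ hπ h4 h5
  · have h3 : π ∣ f₁ * g₂ := (dvd_add_left (h.mul_left g₁)).1 hb
    rcases hπ.dvd_or_dvd h3 with h4 | h4
    · rcases hπ.dvd_or_dvd hc with h5 | h5
      · exact not_dvd_both h₁ hπ h4 h5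
      · exact not_dvd_both h₂ hπ h h5
    · exact not_dvd_both h₂ hπ h h4

lemma prm_forms {a b : k} (h2 : (2 : k) ≠ 0) (hD : 4 * a ^ 3 + 27 * b ^ 2 ≠ 0) {f g : k[X]}
    (h : IsCoprime f g) : Prm (pA a b f g) (pB a b f g) (pC f g) := by
  intro π hπ ha hb hc
  have h0 : π ∣ f - g * X := hπ.dvd_of_dvd_pow hc
  have hg : ¬ π ∣ g := by
    intro hg
    refine not_dvd_both h hπ ?_ hg
    have := dvd_add h0 (hg.mul_right X)
    rwa [sub_add_cancel] at this
  have hA : π ∣ g ^ 2 * ((X ^ 2 - C a) ^ 2 - 8 * C b * X) := by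
    have e : g ^ 2 * ((X ^ 2 - C a) ^ 2 - 8 * C b * X) = pA a b f g -
        (f - g * X) * (X * (f * X - C a * g + g * (X ^ 2 - C a)) - 4 * C b * g) := by
      unfold pA; ring
    rw [e]
    exact dvd_sub ha (h0.mul_right _)
  have hB : π ∣ g ^ 2 * (4 * (X ^ 3 + C a * X + C b)) := by
    have e : g ^ 2 * (4 * (X ^ 3 + C a * X + C b)) = pB a b f g -
        (f - g * X) * (2 * X * (f + g * X) + 2 * (g * X ^ 2 + C a * g)) := by
      unfold pB; ring
    rw [e]
    exact dvd_sub hb (h0.mul_right _)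
  have hA' : π ∣ (X ^ 2 - C a) ^ 2 - 8 * C b * X :=
    (hπ.dvd_or_dvd hA).resolve_left fun h' => hg (hπ.dvd_of_dvd_pow h')
  have hB' : π ∣ 4 * (X ^ 3 + C a * X + C b) :=
    (hπ.dvd_or_dvd hB).resolve_left fun h' => hg (hπ.dvd_of_dvd_pow h')
  have h4 : (4 : k) ≠ 0 := by
    have : (4 : k) = 2 * 2 := by norm_num
    rw [this]; exact mul_ne_zero h2 h2
  have key : π ∣ C (4 * (4 * a ^ 3 + 27 * b ^ 2)) := by
    have e : C (4 * (4 * a ^ 3 + 27 * b ^ 2)) =
        ((X ^ 2 - C a) ^ 2 - 8 * C b * X) * (4 * (3 * X ^ 2 + 4 * C a)) -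
        4 * (X ^ 3 + C a * X + C b) * (3 * X ^ 3 - 5 * C a * X - 27 * C b) := by
      simp only [map_mul, map_add, map_pow, map_ofNat]
      ring
    rw [e]
    exact dvd_sub (hA'.mul_right _) (hB'.mul_right _)
  have hu : IsUnit (C (4 * (4 * a ^ 3 + 27 * b ^ 2)) : k[X]) :=
    isUnit_C.2 (isUnit_iff_ne_zero.2 (mul_ne_zero h4 hD))
  exact hπ.not_isUnit (isUnit_of_dvd_unit key hu)

lemma unit_aux {m n S₁ S₂ S₃ T₁ T₂ T₃ : k[X]} (hmn : IsCoprime m n) (hn : n ≠ 0)
    (hS : Prm S₁ S₂ S₃) (h₁ : n * T₁ = m * S₁) (h₂ : n * T₂ = m * S₂) (h₃ : n * T₃ = m * S₃) :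
    IsUnit n := by
  by_contra hu
  obtain ⟨π, hπ, hd⟩ := WfDvdMonoid.exists_irreducible_factor hu hn
  have hp : Prime π := hπ.prime
  have key : ∀ {S T : k[X]}, n * T = m * S → π ∣ S := by
    intro S T h
    have : π ∣ m * S := h ▸ hd.mul_right T
    exact (hp.dvd_or_dvd this).resolve_left fun h' => not_dvd_both hmn hp h' hd
  exact hS π hp (key h₁) (key h₂) (key h₃)

/-- proportional primitive triples differ by a unit -/
lemma unit_ratio {m n S₁ S₂ S₃ T₁ T₂ T₃ : k[X]} (hmn : IsCoprime m n) (hm : m ≠ 0) (hn : n ≠ 0)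
    (hS : Prm S₁ S₂ S₃) (hT : Prm T₁ T₂ T₃) (h₁ : n * T₁ = m * S₁) (h₂ : n * T₂ = m * S₂)
    (h₃ : n * T₃ = m * S₃) :
    ∃ u : k[X], IsUnit u ∧ T₁ = u * S₁ ∧ T₂ = u * S₂ ∧ T₃ = u * S₃ := by
  have hn' : IsUnit n := unit_aux hmn hn hS h₁ h₂ h₃
  have hm' : IsUnit m := unit_aux hmn.symm hm hT h₁.symm h₂.symm h₃.symm
  obtain ⟨w, hw⟩ := hn'.exists_left_inv
  have hw' : IsUnit w := IsUnit.of_mul_eq_one n hw
  have key : ∀ {S T : k[X]}, n * T = m * S → T = w * m * S := by
    intro S T h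
    have e : w * (n * T) = w * (m * S) := by rw [h]
    rw [← mul_assoc, hw, one_mul] at e
    rw [e, mul_assoc]
  exact ⟨w * m, hw'.mul hm', key h₁, key h₂, key h₃⟩

/-! ### degrees -/

lemma natDegree_le_of_lt {f g : k[X]} (h : g.degree < f.degree) : g.natDegree ≤ f.natDegree :=
  natDegree_le_natDegree h.le

lemma natDegree_pA (a b : k) {f g : k[X]} (h : g.degree < f.degree) :
    (pA a b f g).natDegree = 2 * f.natDegree + 2 := by
  have hf : f ≠ 0 := by
    rintro rfl
    rw [degree_zero] at h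
    exact not_lt_bot h
  have hg := natDegree_le_of_lt h
  have h1 : (f * X).natDegree = f.natDegree + 1 := natDegree_mul_X hf
  have h2 : (C a * g).natDegree < (f * X).natDegree := by
    rw [h1]
    exact lt_of_le_of_lt (natDegree_C_mul_le a g) (by omega)
  have h3 : (f * X - C a * g).natDegree = f.natDegree + 1 := by
    rw [natDegree_sub_eq_left_of_natDegree_lt h2, h1]
  have h4 : ((f * X - C a * g) ^ 2).natDegree = 2 * f.natDegree + 2 := by
    rw [natDegree_pow, h3]; ring
  have h5 : (4 * C b * (f + g * X) * g).natDegree < ((f * X - C a * g) ^ 2).natDegree := by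
    rw [h4]
    have e1 : (4 * C b * (f + g * X) * g).natDegree ≤ (f + g * X).natDegree + g.natDegree := by
      have : (4 * C b * (f + g * X) * g : k[X]) = C (4 * b) * ((f + g * X) * g) := by
        rw [map_mul, map_ofNat]; ring
      rw [this]
      exact (natDegree_C_mul_le _ _).trans natDegree_mul_le
    have e2 : (f + g * X).natDegree ≤ f.natDegree + 1 := by
      refine (natDegree_add_le _ _).trans (max_le (by omega) ?_)
      refine natDegree_mul_le.trans ?_
      rw [natDegree_X]; omega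
    omega
  rw [pA, natDegree_sub_eq_left_of_natDegree_lt h5, h4]

lemma natDegree_pB (a b : k) {f g : k[X]} (h : g.degree < f.degree) :
    (pB a b f g).natDegree ≤ 2 * f.natDegree + 1 := by
  have hg := natDegree_le_of_lt h
  have e2 : (f + g * X).natDegree ≤ f.natDegree := by
    rcases eq_or_ne g 0 with rfl | hg0
    · simp
    · refine (natDegree_add_le _ _).trans (max_le le_rfl ?_)
      have : g.natDegree < f.natDegree := natDegree_lt_natDegree hg0 h
      refine natDegree_mul_le.trans ?_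
      rw [natDegree_X]; omega
  have e3 : (f * X + C a * g).natDegree ≤ f.natDegree + 1 := by
    refine (natDegree_add_le _ _).trans (max_le ?_ ((natDegree_C_mul_le a g).trans (by omega)))
    refine natDegree_mul_le.trans ?_
    rw [natDegree_X]
  unfold pB
  refine (natDegree_add_le _ _).trans (max_le ?_ ?_)
  · have : (2 * (f * X + C a * g) * (f + g * X) : k[X]) =
        C 2 * ((f * X + C a * g) * (f + g * X)) := by rw [map_ofNat]; ring
    rw [this]
    refine (natDegree_C_mul_le _ _).trans (natDegree_mul_le.trans ?_)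
    omega
  · have : (4 * C b * g ^ 2 : k[X]) = C (4 * b) * g ^ 2 := by rw [map_mul, map_ofNat]
    rw [this]
    refine (natDegree_C_mul_le _ _).trans (natDegree_pow_le.trans ?_)
    omega

/-- **one step**: degrees -/
lemma step_deg {a b : k} {f g f₁ f₂ u : k[X]} (hu : IsUnit u) (h : g.degree < f.degree)
    (hA : f₁ * f₂ = u * pA a b f g) : f₁.natDegree + f₂.natDegree = 2 * f.natDegree + 2 ∧
      f₁ ≠ 0 ∧ f₂ ≠ 0 := by
  have hd := natDegree_pA a b h
  have hA0 : pA a b f g ≠ 0 := by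
    intro h0; rw [h0] at hd; simp at hd
  have hne : f₁ * f₂ ≠ 0 := by rw [hA]; exact mul_ne_zero hu.ne_zero hA0
  have h1 := left_ne_zero_of_mul hne
  have h2 := right_ne_zero_of_mul hne
  refine ⟨?_, h1, h2⟩
  rw [← natDegree_mul h1 h2, hA, natDegree_mul hu.ne_zero hA0, natDegree_eq_zero_of_isUnit hu,
    zero_add, hd]

/-- **one step**: the pole at infinity -/
lemma step_pos {a b : k} {f g f₁ g₁ f₂ g₂ u : k[X]} (hu : IsUnit u) (h : g.degree < f.degree)
    (hA : f₁ * f₂ = u * pA a b f g) (hB : f₁ * g₂ + g₁ * f₂ = u * pB a b f g)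
    (h' : g₂.degree < f₂.degree) : g₁.degree < f₁.degree := by
  obtain ⟨hd, h1, h2⟩ := step_deg hu h hA
  rcases eq_or_ne g₁ 0 with rfl | hg
  · rw [degree_zero]
    exact bot_lt_iff_ne_bot.2 (degree_ne_bot.2 h1)
  have e0 : g₁ * f₂ = u * pB a b f g - f₁ * g₂ := by rw [← hB]; ring
  have e1 : (u * pB a b f g).natDegree < f₁.natDegree + f₂.natDegree := by
    refine lt_of_le_of_lt natDegree_mul_le ?_
    rw [natDegree_eq_zero_of_isUnit hu, hd]
    have := natDegree_pB a b h
    omega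
  have e2 : (g₁ * f₂).natDegree < f₁.natDegree + f₂.natDegree := by
    rw [e0]
    rcases eq_or_ne g₂ 0 with rfl | hg2
    · simpa using e1
    · have e3 : (f₁ * g₂).natDegree < f₁.natDegree + f₂.natDegree := by
        rw [natDegree_mul h1 hg2]
        have := natDegree_lt_natDegree hg2 h'
        omega
      exact lt_of_le_of_lt (natDegree_sub_le _ _) (max_lt e1 e3)
  rw [natDegree_mul hg h2] at e2
  exact degree_lt_degree (by omega)

end Vale.Agent.P004H.H666
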