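import Vale.Agent.P004H.H666.Hasse2

/-!
Manin's proof of the Hasse bound: the points `Q + n R` and their degrees.
-/

namespace Vale.Agent.P004H.H666

open Polynomial WeierstrassCurve.Affine

variable {k : Type*} [Field k]

/-- the cubic -/
noncomputable def lam (a b : k) : k[X] := X ^ 3 + C a * X + C b

/-- the function field of the line -/
abbrev KK (k : Type*) [Field k] := FractionRing k[X]

noncomputable instance : DecidableEq (KK k) := Classical.decEq _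

/-- the embedding of the polynomials -/
noncomputable abbrev ph : k[X] →+* KK k := algebraMap k[X] (KK k)

lemma ph_inj : Function.Injective (ph (k := k)) := IsFractionRing.injective k[X] (KK k)

lemma ph_ne {f : k[X]} (h : f ≠ 0) : ph f ≠ 0 := fun h' => h (ph_inj (h'.trans (map_zero _).symm))

/-- the twisted curve -/
noncomputable abbrev cv (a b : k) : WeierstrassCurve.Affine (KK k) :=
  crv (ph (C a * lam a b ^ 2)) (ph (C b * lam a b ^ 3))

lemma lam_ne (a b : k) : lam a b ≠ 0 := by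
  intro h
  have : (lam a b).natDegree = 3 := by unfold lam; compute_degree!
  rw [h] at this
  simp at this

lemma frac (x : KK k) : ∃ m n : k[X], IsCoprime m n ∧ n ≠ 0 ∧ x * ph n = ph m := by
  refine ⟨IsFractionRing.num k[X] x, IsFractionRing.den k[X] x,
    (IsFractionRing.num_den_reduced k[X] x).isCoprime, nonZeroDivisors.ne_zero (SetLike.coe_mem _),
    ?_⟩
  have h := IsFractionRing.mk'_num_den k[X] x
  have h2 := IsLocalization.mk'_spec (M := nonZeroDivisors k[X]) (KK k)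
    (IsFractionRing.num k[X] x) (IsFractionRing.den k[X] x)
  rwa [h] at h2

/-- `(lam f : g)` is the x-coordinate, `f`, `g` coprime -/
def Rp {a b : k} (P : (cv a b).Point) (f g : k[X]) : Prop :=
  IsCoprime f g ∧ ∃ ρ : KK k, ρ ≠ 0 ∧ xp P = ρ * ph (lam a b * f) ∧ zp P = ρ * ph g

lemma exists_rp {a b : k} (P : (cv a b).Point) : ∃ f g, Rp P f g := by
  have hl := ph_ne (lam_ne a b)
  match P with
  | .zero =>
    refine ⟨1, 0, isCoprime_one_left, (ph (lam a b))⁻¹, inv_ne_zero hl, ?_, ?_⟩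
    · change (1 : KK k) = _
      rw [mul_one, inv_mul_cancel₀ hl]
    · change (0 : KK k) = _
      rw [map_zero, mul_zero]
  | .some x y h =>
    obtain ⟨f, g, hc, hg, he⟩ := frac (x / ph (lam a b))
    have hg' := ph_ne hg
    refine ⟨f, g, hc, (ph g)⁻¹, inv_ne_zero hg', ?_, ?_⟩
    · rw [xp_some, map_mul, ← he]
      field_simp
    · rw [zp_some, inv_mul_cancel₀ hg']

/-- **the relation between the x-coordinates of `P + R`, `P - R`** -/
theorem rel {a b : k} (h2 : (2 : k) ≠ 0) (hD : 4 * a ^ 3 + 27 * b ^ 2 ≠ 0)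
    {P R : (cv a b).Point} (hRx : xp R = ph (lam a b * X)) (hRz : zp R = 1)
    {f g f₁ g₁ f₂ g₂ : k[X]} (h : Rp P f g) (h₁ : Rp (P + R) f₁ g₁) (h₂ : Rp (P - R) f₂ g₂) :
    ∃ u : k[X], IsUnit u ∧ f₁ * f₂ = u * pA a b f g ∧ f₁ * g₂ + g₁ * f₂ = u * pB a b f g ∧
      g₁ * g₂ = u * pC f g := by
  obtain ⟨hc, ρ, hρ, hx, hz⟩ := h
  obtain ⟨hc₁, ρ₁, hρ₁, hx₁, hz₁⟩ := h₁
  obtain ⟨hc₂, ρ₂, hρ₂, hx₂, hz₂⟩ := h₂
  have h2' : (2 : KK k) ≠ 0 := by
    have : (2 : KK k) = ph (C 2) := by rw [map_ofNat, map_ofNat]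
    rw [this]
    exact ph_ne (C_ne_zero.2 h2)
  have hl := ph_ne (lam_ne a b)
  obtain ⟨μ, hμ, e1, e2, e3⟩ := rl_point h2' P R
  rw [hx, hz, hRx, hRz, hx₁, hx₂] at e1
  rw [hx, hz, hRx, hRz, hx₁, hx₂, hz₁, hz₂] at e2
  rw [hx, hz, hRx, hRz, hz₁, hz₂] at e3
  set L := ph (lam a b) with hL
  obtain ⟨m, n, hmn, hn, he⟩ := frac (μ * ρ ^ 2 * L ^ 2 / (ρ₁ * ρ₂))
  have hn' := ph_ne hn
  have hm' : ph m ≠ 0 := by
    rw [← he]
    exact mul_ne_zero (div_ne_zero (mul_ne_zero (mul_ne_zero hμ (pow_ne_zero 2 hρ))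
      (pow_ne_zero 2 hl)) (mul_ne_zero hρ₁ hρ₂)) hn'
  have hm : m ≠ 0 := by rintro rfl; exact hm' (map_zero _)
  have he' : μ * ρ ^ 2 * L ^ 2 * ph n = ph m * (ρ₁ * ρ₂) := by
    rw [← he]; field_simp
  refine unit_ratio hmn hm hn (prm_forms h2 hD hc) (prm_prod hc₁ hc₂) ?_ ?_ ?_
  · apply ph_inj
    have hk : ρ₁ * ρ₂ * L ^ 2 ≠ 0 := mul_ne_zero (mul_ne_zero hρ₁ hρ₂) (pow_ne_zero 2 hl)
    refine mul_left_cancel₀ hk ?_
    simp only [pA, map_mul, map_add, map_sub, map_pow, map_ofNat, ← hL] at e1 ⊢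
    linear_combination ph n * e1 + L ^ 2 * ((ph f * ph X - ph (C a) * ph g) ^ 2 -
      4 * ph (C b) * (ph f + ph g * ph X) * ph g) * he'
  · apply ph_inj
    have hk : ρ₁ * ρ₂ * L ≠ 0 := mul_ne_zero (mul_ne_zero hρ₁ hρ₂) hl
    refine mul_left_cancel₀ hk ?_
    simp only [pB, map_mul, map_add, map_pow, map_ofNat, ← hL] at e2 ⊢
    linear_combination ph n * e2 + L * (2 * (ph f * ph X + ph (C a) * ph g) *
      (ph f + ph g * ph X) + 4 * ph (C b) * ph g ^ 2) * he'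
  · apply ph_inj
    have hk : ρ₁ * ρ₂ ≠ 0 := mul_ne_zero hρ₁ hρ₂
    refine mul_left_cancel₀ hk ?_
    simp only [pC, map_mul, map_sub, map_pow, ← hL] at e3 ⊢
    linear_combination ph n * e3 + (ph f - ph g * ph X) ^ 2 * he'

/-- the degree of the point is `N`, and it has a pole at infinity -/
def Hd {a b : k} (P : (cv a b).Point) (N : ℤ) : Prop :=
  ∃ f g, Rp P f g ∧ g.degree < f.degree ∧ (f.natDegree : ℤ) = N

theorem hd_up {a b : k} (h2 : (2 : k) ≠ 0) (hD : 4 * a ^ 3 + 27 * b ^ 2 ≠ 0)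
    {P R : (cv a b).Point} (hRx : xp R = ph (lam a b * X)) (hRz : zp R = 1) {M N : ℤ}
    (h : Hd P N) (h' : Hd (P - R) M) : Hd (P + R) (2 * N + 2 - M) := by
  obtain ⟨f, g, hr, hd, hN⟩ := h
  obtain ⟨f₂, g₂, hr₂, hd₂, hM⟩ := h'
  obtain ⟨f₁, g₁, hr₁⟩ := exists_rp (P + R)
  obtain ⟨u, hu, hA, hB, hC⟩ := rel h2 hD hRx hRz hr hr₁ hr₂
  refine ⟨f₁, g₁, hr₁, step_pos hu hd hA hB hd₂, ?_⟩
  have := (step_deg hu hd hA).1
  omega

theorem hd_down {a b : k} (h2 : (2 : k) ≠ 0) (hD : 4 * a ^ 3 + 27 * b ^ 2 ≠ 0)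
    {P R : (cv a b).Point} (hRx : xp R = ph (lam a b * X)) (hRz : zp R = 1) {M N : ℤ}
    (h : Hd P N) (h' : Hd (P + R) M) : Hd (P - R) (2 * N + 2 - M) := by
  obtain ⟨f, g, hr, hd, hN⟩ := h
  obtain ⟨f₁, g₁, hr₁, hd₁, hM⟩ := h'
  obtain ⟨f₂, g₂, hr₂⟩ := exists_rp (P - R)
  obtain ⟨u, hu, hA, hB, hC⟩ := rel h2 hD hRx hRz hr hr₁ hr₂
  have hA' : f₂ * f₁ = u * pA a b f g := by rw [← hA]; ring
  have hB' : f₂ * g₁ + g₂ * f₁ = u * pB a b f g := by rw [← hB]; ring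
  refine ⟨f₂, g₂, hr₂, step_pos hu hd hA' hB' hd₁, ?_⟩
  have := (step_deg hu hd hA).1
  omega

/-- **the quadratic polynomial takes non-negative values** -/
theorem quad_nonneg {a b : k} (h2 : (2 : k) ≠ 0) (hD : 4 * a ^ 3 + 27 * b ^ 2 ≠ 0)
    {Q R : (cv a b).Point} (hRx : xp R = ph (lam a b * X)) (hRz : zp R = 1) {q S : ℤ}
    (h0 : Hd Q q) (h1 : Hd (Q - R) (q + 1 + S)) (n : ℤ) : 0 ≤ n ^ 2 - S * n + q := by
  have key : ∀ n : ℤ, Hd (Q + n • R) (n ^ 2 - S * n + q) ∧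
      Hd (Q + (n - 1) • R) ((n - 1) ^ 2 - S * (n - 1) + q) := by
    intro n
    induction n using Int.induction_on with
    | zero =>
      constructor
      · simpa using h0
      · have e : Q + ((0 : ℤ) - 1) • R = Q - R := by
          rw [zero_sub, neg_smul, one_smul, sub_eq_add_neg]
        rw [e]
        convert h1 using 1
        ring
    | succ n ih =>
      obtain ⟨i1, i2⟩ := ih
      have e1 : Q + ((n : ℤ) - 1) • R = Q + (n : ℤ) • R - R := by
        rw [sub_smul, one_smul]; abel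
      have e2 : Q + ((n : ℤ) + 1) • R = Q + (n : ℤ) • R + R := by
        rw [add_zsmul, one_zsmul, add_assoc]
      refine ⟨?_, ?_⟩
      · rw [e2]
        rw [e1] at i2
        convert hd_up h2 hD hRx hRz i1 i2 using 1
        ring
      · rw [add_sub_cancel_right]
        exact i1
    | pred n ih =>
      obtain ⟨i1, i2⟩ := ih
      refine ⟨i2, ?_⟩
      have e1 : Q + (-(n : ℤ)) • R = Q + (-(n : ℤ) - 1) • R + R := by
        rw [sub_smul, one_smul]; abel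
      have e2 : Q + (-(n : ℤ) - 1 - 1) • R = Q + (-(n : ℤ) - 1) • R - R := by
        rw [sub_smul (-(n : ℤ) - 1) 1 R, one_smul]; abel
      rw [e2]
      rw [e1] at i1
      convert hd_down h2 hD hRx hRz i2 i1 using 1
      ring
  obtain ⟨f, g, -, -, hN⟩ := (key n).1
  rw [← hN]
  positivity

end Vale.Agent.P004H.H666
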