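import Vale.Agent.P004H.H666.Hasse3

/-!
Manin's proof of the Hasse bound: the base case over a finite field.
-/

namespace Vale.Agent.P004H.H666

open Polynomial WeierstrassCurve.Affine

variable {k : Type*} [Field k]

lemma natDegree_lam (a b : k) : (lam a b).natDegree = 3 := by
  unfold lam; compute_degree!

lemma eval_lam (a b c : k) : (lam a b).eval c = c ^ 3 + a * c + b := by
  simp [lam]

lemma two_ne {h2 : (2 : k) ≠ 0} : (2 : KK k) ≠ 0 := by
  have : (2 : KK k) = ph (C 2) := by rw [map_ofNat, map_ofNat]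
  rw [this]
  exact ph_ne (C_ne_zero.2 h2)

lemma disc_cv {a b : k} (h2 : (2 : k) ≠ 0) (hD : 4 * a ^ 3 + 27 * b ^ 2 ≠ 0) :
    (cv a b).Δ ≠ 0 := by
  have e : (cv a b).Δ = ph (C (-(2 ^ 4 * (4 * a ^ 3 + 27 * b ^ 2))) * lam a b ^ 6) := by
    simp only [WeierstrassCurve.Δ, WeierstrassCurve.b₂, WeierstrassCurve.b₄, WeierstrassCurve.b₆,
      WeierstrassCurve.b₈, map_mul, map_neg, map_pow, map_add, map_ofNat]
    ring
  rw [e]
  refine ph_ne (mul_ne_zero (C_ne_zero.2 (neg_ne_zero.2 (mul_ne_zero (pow_ne_zero 4 h2) hD)))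
    (pow_ne_zero 6 (lam_ne a b)))

/-- a point from `lam Y² = g³ + a g + b` -/
lemma nsg_of {a b : k} (h2 : (2 : k) ≠ 0) (hD : 4 * a ^ 3 + 27 * b ^ 2 ≠ 0) {g Y : k[X]}
    (h : lam a b * Y ^ 2 = g ^ 3 + C a * g + C b) :
    (cv a b).Nonsingular (ph (lam a b * g)) (ph (lam a b ^ 2 * Y)) := by
  rw [← equation_iff_nonsingular_of_Δ_ne_zero (disc_cv h2 hD), equation_iff]
  simp only [zero_mul, add_zero]
  rw [← map_pow, ← map_pow, ← map_mul, ← map_add, ← map_add]
  congr 1
  linear_combination lam a b ^ 3 * h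

/-- the numerator -/
noncomputable def nm (a b : k) (q m : ℕ) : k[X] :=
  lam a b * (lam a b ^ m + 1) ^ 2 - (X ^ q + X) * (X ^ q - X) ^ 2

lemma nm_eq {a b : k} {q m : ℕ} (hq : q = 2 * m + 1)
    (hl : lam a b ^ q = X ^ (3 * q) + C a * X ^ q + C b) :
    nm a b q m = X ^ (2 * q + 1) + (X ^ (q + 2) + C a * X ^ q + 2 * lam a b ^ (m + 1) +
      C a * X + C (2 * b)) := by
  have e1 : lam a b * (lam a b ^ m + 1) ^ 2 = lam a b ^ q + 2 * lam a b ^ (m + 1) + lam a b := by
    rw [hq]; ring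
  rw [nm, e1, hl]
  have e2 : (X ^ (3 * q) : k[X]) = (X ^ q) ^ 3 := by ring
  have e3 : (X ^ (2 * q + 1) : k[X]) = (X ^ q) ^ 2 * X := by ring
  have e4 : (X ^ (q + 2) : k[X]) = X ^ q * X ^ 2 := by ring
  rw [e2, e3, e4, map_mul, map_ofNat]
  unfold lam
  ring

lemma natDegree_nm {a b : k} {q m : ℕ} (hq : q = 2 * m + 1) (hm : 1 ≤ m)
    (hl : lam a b ^ q = X ^ (3 * q) + C a * X ^ q + C b) :
    (nm a b q m).natDegree = 2 * q + 1 := by
  have h : (X ^ (q + 2) + C a * X ^ q + 2 * lam a b ^ (m + 1) + C a * X +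
      C (2 * b)).natDegree < (X ^ (2 * q + 1) : k[X]).natDegree := by
    rw [natDegree_X_pow]
    have h1 : (2 * lam a b ^ (m + 1)).natDegree ≤ 2 * q := by
      refine natDegree_mul_le.trans ?_
      have : (2 : k[X]).natDegree = 0 := by
        rw [show (2 : k[X]) = C 2 by rw [map_ofNat], natDegree_C]
      rw [this, natDegree_pow, natDegree_lam]
      omega
    refine Nat.lt_succ_of_le ?_
    refine (natDegree_add_le _ _).trans (max_le ?_
      (by rw [natDegree_C]; exact Nat.zero_le _))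
    refine (natDegree_add_le _ _).trans (max_le ?_ ((natDegree_C_mul_le _ _).trans
      (by rw [natDegree_X]; omega)))
    refine (natDegree_add_le _ _).trans (max_le ?_ h1)
    refine (natDegree_add_le _ _).trans (max_le (by rw [natDegree_X_pow]; omega)
      ((natDegree_C_mul_le _ _).trans (by rw [natDegree_X_pow]; omega)))
  rw [nm_eq hq hl, natDegree_add_eq_left_of_natDegree_lt h, natDegree_X_pow]

section fin

variable [Fintype k]

lemma lam_pow (a b : k) : lam a b ^ Fintype.card k =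
    X ^ (3 * Fintype.card k) + C a * X ^ Fintype.card k + C b := by
  rw [← FiniteField.expand_card]
  simp only [lam, map_add, map_mul, map_pow, expand_C, expand_X]
  ring

lemma xpow_ne : (X ^ Fintype.card k - X : k[X]) ≠ 0 :=
  FiniteField.X_pow_card_sub_X_ne_zero k Fintype.one_lt_card

lemma rm_xpow (c : k) : (X ^ Fintype.card k - X : k[X]).rootMultiplicity c = 1 := by
  classical
  rw [← count_roots, FiniteField.roots_X_pow_card_sub_X]
  exact Multiset.count_eq_one_of_mem Finset.univ.nodup (Finset.mem_univ c)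

lemma splits_xpow : (X ^ Fintype.card k - X : k[X]).Splits := by
  rw [splits_iff_card_roots, FiniteField.roots_X_pow_card_sub_X,
    FiniteField.X_pow_card_sub_X_natDegree_eq k Fintype.one_lt_card]
  rfl

lemma natDegree_eq_sum {g : k[X]} (hg : g.Splits) :
    g.natDegree = ∑ c, g.rootMultiplicity c := by
  classical
  rw [hg.natDegree_eq_card_roots, ← Multiset.sum_count_eq_card (s := Finset.univ)
    (fun a _ => Finset.mem_univ a)]
  exact Finset.sum_congr rfl fun c _ => count_roots g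

lemma eval_nm (a b c : k) (m : ℕ) : (nm a b (Fintype.card k) m).eval c =
    (c ^ 3 + a * c + b) * ((c ^ 3 + a * c + b) ^ m + 1) ^ 2 := by
  simp [nm, lam, FiniteField.pow_card]

lemma deriv_nm {a b c : k} {m : ℕ} (hm : m ≠ 0) (h0 : c ^ 3 + a * c + b = 0) :
    (derivative (nm a b (Fintype.card k) m)).eval c = 3 * c ^ 2 + a := by
  have hl : (lam a b).eval c = 0 := by rw [eval_lam, h0]
  have hx : (X ^ Fintype.card k - X : k[X]).eval c = 0 := by simp [FiniteField.pow_card]
  have hd : (derivative (lam a b)).eval c = 3 * c ^ 2 + a := by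
    simp [lam]
    left; norm_num
  rw [nm, derivative_sub, derivative_mul, derivative_mul, derivative_pow (n := 2),
    derivative_pow (n := 2), eval_sub, eval_add, eval_add]
  simp only [eval_mul, eval_pow, eval_add, hl, hx, hd, eval_one, zero_pow hm, eval_C]
  simp

omit [Fintype k] in
lemma cub_ne {a b c : k} (hD : 4 * a ^ 3 + 27 * b ^ 2 ≠ 0) (h0 : c ^ 3 + a * c + b = 0) :
    3 * c ^ 2 + a ≠ 0 := by
  intro h
  apply hD
  have ha : a = -(3 * c ^ 2) := by linear_combination h
  have hb : b = 2 * c ^ 3 := by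
    have : b = -(c ^ 3 + a * c) := by linear_combination h0
    rw [this, ha]; ring
  rw [ha, hb]; ring

omit [Fintype k] in
lemma rm_coprime {f g : k[X]} (h : IsCoprime f g) (c : k) :
    f.rootMultiplicity c = 0 ∨ g.rootMultiplicity c = 0 := by
  by_contra hc
  push Not at hc
  have h1 : f.IsRoot c := by
    by_contra h'
    exact hc.1 (rootMultiplicity_eq_zero h')
  have h2 : g.IsRoot c := by
    by_contra h'
    exact hc.2 (rootMultiplicity_eq_zero h')
  exact not_dvd_both h (prime_X_sub_C c) (dvd_iff_isRoot.2 h1) (dvd_iff_isRoot.2 h2)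

lemma rm_g [DecidableEq k] {a b : k} {m : ℕ} (hF : ringChar k ≠ 2)
    (hD : 4 * a ^ 3 + 27 * b ^ 2 ≠ 0) (hmq : m = Fintype.card k / 2) (hm : m ≠ 0)
    {f g : k[X]} (hc : IsCoprime f g) (hf : f ≠ 0) (hg : g ≠ 0)
    (hn : nm a b (Fintype.card k) m ≠ 0)
    (h : f * (X ^ Fintype.card k - X) ^ 2 = nm a b (Fintype.card k) m * g) (c : k) :
    (g.rootMultiplicity c : ℤ) = 1 + quadraticChar k (c ^ 3 + a * c + b) := by
  have h1 : f.rootMultiplicity c + 2 =
      (nm a b (Fintype.card k) m).rootMultiplicity c + g.rootMultiplicity c := by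
    rw [← rootMultiplicity_mul (mul_ne_zero hn hg), ← h,
      rootMultiplicity_mul (mul_ne_zero hf (pow_ne_zero 2 xpow_ne)), pow_two,
      rootMultiplicity_mul (mul_ne_zero xpow_ne xpow_ne), rm_xpow]
  have h2 := rm_coprime hc c
  have hE := quadraticChar_eq_pow_of_char_ne_two' hF (c ^ 3 + a * c + b)
  rw [← hmq] at hE
  have h2' : (2 : k) ≠ 0 := Ring.two_ne_zero hF
  by_cases h0 : c ^ 3 + a * c + b = 0
  · have e : (nm a b (Fintype.card k) m).rootMultiplicity c = 1 := by
      apply le_antisymm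
      · rw [← not_lt]
        intro h'
        rw [one_lt_rootMultiplicity_iff_isRoot hn] at h'
        have := h'.2
        rw [IsRoot.def, deriv_nm hm h0] at this
        exact cub_ne hD h0 this
      · rw [Nat.one_le_iff_ne_zero, ← pos_iff_ne_zero, rootMultiplicity_pos hn, IsRoot.def,
          eval_nm, h0, zero_mul]
    rw [h0, quadraticChar_zero]
    omega
  · rcases quadraticChar_dichotomy h0 with h' | h'
    · rw [h', Int.cast_one] at hE
      have e : (nm a b (Fintype.card k) m).rootMultiplicity c = 0 := by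
        apply rootMultiplicity_eq_zero
        rw [IsRoot.def, eval_nm, ← hE]
        refine mul_ne_zero h0 (pow_ne_zero 2 ?_)
        rw [one_add_one_eq_two]
        exact h2'
      rw [h']
      omega
    · rw [h', Int.cast_neg, Int.cast_one] at hE
      have e : 2 ≤ (nm a b (Fintype.card k) m).rootMultiplicity c := by
        rw [le_rootMultiplicity_iff hn, nm]
        refine dvd_sub (Dvd.dvd.mul_left (pow_dvd_pow_of_dvd ?_ 2) _)
          (Dvd.dvd.mul_left (pow_dvd_pow_of_dvd ?_ 2) _)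
        · rw [dvd_iff_isRoot, IsRoot.def, eval_add, eval_pow, eval_lam, ← hE, eval_one]
          ring
        · rw [dvd_iff_isRoot, IsRoot.def]
          simp [FiniteField.pow_card]
      rw [h']
      omega

end fin

/-! ### the base points -/

/-- the generic point -/
noncomputable def pR {a b : k} (h2 : (2 : k) ≠ 0) (hD : 4 * a ^ 3 + 27 * b ^ 2 ≠ 0) :
    (cv a b).Point :=
  Point.some (ph (lam a b * X)) (ph (lam a b ^ 2 * 1))
    (nsg_of h2 hD (g := X) (Y := 1) (by rw [one_pow, mul_one, lam]))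

section base

variable [Fintype k]

lemma frob_eq (a b : k) {m : ℕ} (hq : Fintype.card k = 2 * m + 1) :
    lam a b * (lam a b ^ m) ^ 2 = (X ^ Fintype.card k) ^ 3 + C a * X ^ Fintype.card k + C b := by
  have h := lam_pow a b
  have e1 : lam a b * (lam a b ^ m) ^ 2 = lam a b ^ Fintype.card k := by rw [hq]; ring
  rw [e1, h]
  ring

/-- the Frobenius point -/
noncomputable def pQ {a b : k} (h2 : (2 : k) ≠ 0) (hD : 4 * a ^ 3 + 27 * b ^ 2 ≠ 0) {m : ℕ}
    (hq : Fintype.card k = 2 * m + 1) : (cv a b).Point :=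
  Point.some (ph (lam a b * X ^ Fintype.card k)) (ph (lam a b ^ 2 * lam a b ^ m))
    (nsg_of h2 hD (frob_eq a b hq))

lemma hd_pQ {a b : k} (h2 : (2 : k) ≠ 0) (hD : 4 * a ^ 3 + 27 * b ^ 2 ≠ 0) {m : ℕ}
    (hq : Fintype.card k = 2 * m + 1) : Hd (pQ h2 hD hq) (Fintype.card k) := by
  refine ⟨X ^ Fintype.card k, 1, ⟨isCoprime_one_right, 1, one_ne_zero, ?_, ?_⟩, ?_, ?_⟩
  · rw [one_mul]; rfl
  · rw [map_one, one_mul]; rfl
  · rw [degree_X_pow, degree_one]
    exact_mod_cast Fintype.card_pos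
  · rw [natDegree_X_pow]

lemma sub_eq {a b : k} (h2 : (2 : k) ≠ 0) (hD : 4 * a ^ 3 + 27 * b ^ 2 ≠ 0) {m : ℕ}
    (hq : Fintype.card k = 2 * m + 1) :
    xp (pQ h2 hD hq - pR h2 hD) * ph (X ^ Fintype.card k - X) ^ 2 =
      ph (lam a b * nm a b (Fintype.card k) m) ∧ zp (pQ h2 hD hq - pR h2 hD) = 1 := by
  have hl := ph_ne (lam_ne a b)
  have hd : ph (X ^ Fintype.card k - X : k[X]) ≠ 0 := ph_ne xpow_ne
  have hx : ph (lam a b * X ^ Fintype.card k) ≠ ph (lam a b * X) := by
    intro h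
    have h' := mul_left_cancel₀ (lam_ne a b) (ph_inj h)
    exact xpow_ne (sub_eq_zero.2 h')
  have hx' : ph (lam a b * X ^ Fintype.card k) - ph (lam a b * X) ≠ 0 := sub_ne_zero.2 hx
  rw [pQ, pR, sub_eq_add_neg, Point.neg_some, Point.add_of_X_ne hx, xp_some, zp_some]
  refine ⟨?_, rfl⟩
  rw [addX, slope_of_X_ne hx]
  simp only [negY, zero_mul, sub_zero, add_zero, nm, map_mul, map_sub, map_add, map_pow, map_one]
    at hd hx' ⊢
  rw [← mul_sub] at hx' ⊢
  field_simp
  ring

lemma hd_sub [DecidableEq k] {a b : k} (hF : ringChar k ≠ 2) (h2 : (2 : k) ≠ 0)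
    (hD : 4 * a ^ 3 + 27 * b ^ 2 ≠ 0) {m : ℕ} (hq : Fintype.card k = 2 * m + 1) (hm : m ≠ 0) :
    Hd (pQ h2 hD hq - pR h2 hD)
      (Fintype.card k + 1 + ∑ x, quadraticChar k (x ^ 3 + a * x + b)) := by
  obtain ⟨f, g, hr⟩ := exists_rp (pQ h2 hD hq - pR h2 hD)
  obtain ⟨hc, ρ, hρ, hx, hz⟩ := id hr
  obtain ⟨e1, e2⟩ := sub_eq h2 hD hq
  have hdn := natDegree_nm (a := a) (b := b) hq (Nat.one_le_iff_ne_zero.2 hm) (lam_pow a b)
  have hn : nm a b (Fintype.card k) m ≠ 0 := by
    intro h; rw [h, natDegree_zero] at hdn; omega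
  have hg : g ≠ 0 := by
    rintro rfl
    rw [hz, map_zero, mul_zero] at e2
    exact zero_ne_one e2
  have key : f * (X ^ Fintype.card k - X) ^ 2 = nm a b (Fintype.card k) m * g := by
    refine mul_left_cancel₀ (lam_ne a b) (ph_inj ?_)
    rw [hx] at e1
    rw [hz] at e2
    simp only [map_mul, map_pow] at e1 ⊢
    linear_combination ph g * e1 - ph (lam a b) * ph f * ph (X ^ Fintype.card k - X) ^ 2 * e2
  have hf : f ≠ 0 := by
    rintro rfl
    rw [zero_mul] at key
    exact mul_ne_zero hn hg key.symm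
  have hdx : (X ^ Fintype.card k - X : k[X]).natDegree = Fintype.card k :=
    FiniteField.X_pow_card_sub_X_natDegree_eq k Fintype.one_lt_card
  have hdeg : f.natDegree = g.natDegree + 1 := by
    have := congrArg natDegree key
    rw [natDegree_mul hf (pow_ne_zero 2 xpow_ne), natDegree_mul hn hg, natDegree_pow, hdx,
      hdn] at this
    omega
  have hdvd : g ∣ (X ^ Fintype.card k - X) ^ 2 :=
    hc.symm.dvd_of_dvd_mul_left (key ▸ dvd_mul_left g _)
  have hsp : g.Splits := (splits_xpow.pow 2).of_dvd (pow_ne_zero 2 xpow_ne) hdvd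
  have hsum : (g.natDegree : ℤ) = Fintype.card k + ∑ x, quadraticChar k (x ^ 3 + a * x + b) := by
    rw [natDegree_eq_sum hsp, Nat.cast_sum, Finset.sum_congr rfl fun c _ =>
      rm_g hF hD (by omega) hm hc hf hg hn key c, Finset.sum_add_distrib]
    simp
  refine ⟨f, g, hr, degree_lt_degree (by omega), ?_⟩
  rw [hdeg, Nat.cast_add, hsum]
  push_cast
  ring

/-- **the Hasse bound** over a finite field of odd order, as a character sum -/
theorem hasse_char [DecidableEq k] {a b : k} (hF : ringChar k ≠ 2)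
    (hD : 4 * a ^ 3 + 27 * b ^ 2 ≠ 0) :
    (∑ x, quadraticChar k (x ^ 3 + a * x + b)) ^ 2 ≤ 4 * (Fintype.card k : ℤ) := by
  have h2 : (2 : k) ≠ 0 := Ring.two_ne_zero hF
  have hodd := FiniteField.odd_card_of_char_ne_two hF
  have h1 : 1 < Fintype.card k := Fintype.one_lt_card
  obtain ⟨m, hq⟩ : ∃ m, Fintype.card k = 2 * m + 1 := ⟨Fintype.card k / 2, by omega⟩
  have hm : m ≠ 0 := by omega
  have key := quad_nonneg h2 hD (R := pR h2 hD) (Q := pQ h2 hD hq) rfl rfl (hd_pQ h2 hD hq)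
    (hd_sub hF h2 hD hq hm)
  set S := ∑ x, quadraticChar k (x ^ 3 + a * x + b) with hS
  have hq' : (Fintype.card k : ℤ) = 2 * m + 1 := by rw [hq]; push_cast; ring
  rcases Int.even_or_odd' S with ⟨r, hr | hr⟩
  · have := key r
    rw [hr] at this ⊢
    nlinarith
  · have h3 := key (r + 1)
    rw [hr] at h3 ⊢
    rw [hq'] at h3 ⊢
    have h4 : r * (r + 1) ≤ 2 * m + 1 := by nlinarith
    have h5 : r * (r + 1) ≠ 2 * m + 1 := by
      intro h
      have := Int.even_mul_succ_self r
      rw [h] at this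
      exact (Int.not_even_iff_odd.2 ⟨m, rfl⟩) this
    have h6 : r * (r + 1) ≤ 2 * m := by omega
    nlinarith

end base

end Vale.Agent.P004H.H666
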