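import Vale.Agent.P004H.H641.Transfer

/-!
# P004H: the isogenous curves

If the `L`-functions of the twists by `1` and by all fundamental discriminants agree for two curves
(for instance for two isogenous curves), then so do those of all twists. Application: all curves
with the `j`-invariants of the three curves of conductor `11`.
-/

namespace Vale.Agent.P004H.H666

open P004G P004G.ML Vale.Agent.P004H.H641

/-- the same `L`-functions for all twists by `D = 1` or `D` fundamental -/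
def SameF (a b a' b' : ℤ) : Prop :=
  ∀ D : ℤ, Fund1 D → ∀ n : ℕ, LA (a * D ^ 2) (b * D ^ 3) n = LA (a' * D ^ 2) (b' * D ^ 3) n

/-- from the same formula for the coefficients -/
lemma sameF_of {a b a' b' : ℤ} {f : ℤ → ℕ → ℤ}
    (h : ∀ D : ℤ, Fund1 D → ∀ n : ℕ, LA (a * D ^ 2) (b * D ^ 3) n = f D n)
    (h' : ∀ D : ℤ, Fund1 D → ∀ n : ℕ, LA (a' * D ^ 2) (b' * D ^ 3) n = f D n) :
    SameF a b a' b' := fun D hD n => (h D hD n).trans (h' D hD n).symm

lemma disc_tw {a b m : ℤ} (hd : 4 * a ^ 3 + 27 * b ^ 2 ≠ 0) (hm : m ≠ 0) :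
    4 * (a * m ^ 2) ^ 3 + 27 * (b * m ^ 3) ^ 2 ≠ 0 := by
  have h1 : 4 * (a * m ^ 2) ^ 3 + 27 * (b * m ^ 3) ^ 2 = (4 * a ^ 3 + 27 * b ^ 2) * m ^ 6 := by
    ring
  rw [h1]
  exact mul_ne_zero hd (pow_ne_zero 6 hm)

/-- twist by a square -/
lemma LA_sq {a b m s : ℤ} (hd : 4 * a ^ 3 + 27 * b ^ 2 ≠ 0) (hm : m ≠ 0) (hs : s ≠ 0) (n : ℕ) :
    LA (a * (m * s ^ 2) ^ 2) (b * (m * s ^ 2) ^ 3) n = LA (a * m ^ 2) (b * m ^ 3) n := by
  rw [← LA_scale (a := a * m ^ 2) (b := b * m ^ 3) (u := s) (disc_tw hd hm) hs n]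
  congr 1 <;> ring

/-- the twist by `n` and by the discriminant of `ℚ(√n)` -/
lemma LA_Dm {a b m : ℤ} (hd : 4 * a ^ 3 + 27 * b ^ 2 ≠ 0) (hm : m ≠ 0) (n : ℕ) :
    LA (a * (Dm m) ^ 2) (b * (Dm m) ^ 3) n = LA (a * m ^ 2) (b * m ^ 3) n := by
  unfold Dm
  split_ifs
  · rfl
  · rw [show 4 * m = m * 2 ^ 2 by ring, LA_sq hd hm (by norm_num)]

lemma LA_sqp {a b n : ℤ} (hd : 4 * a ^ 3 + 27 * b ^ 2 ≠ 0) (hn : n ≠ 0) (k : ℕ) :
    LA (a * n ^ 2) (b * n ^ 3) k = LA (a * (Dm (sqp n)) ^ 2) (b * (Dm (sqp n)) ^ 3) k := by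
  obtain ⟨h1, s, h2, h3⟩ := sqp_spec hn
  rw [LA_Dm hd h1.ne_zero]
  conv_lhs => rw [h2]
  exact LA_sq hd h1.ne_zero h3 k

/-- **the `L`-functions of all twists agree** -/
theorem SameF.same {a b a' b' : ℤ} (h : SameF a b a' b') (hd : 4 * a ^ 3 + 27 * b ^ 2 ≠ 0)
    (hd' : 4 * a' ^ 3 + 27 * b' ^ 2 ≠ 0) : SameL a b a' b' := by
  intro N hN n
  rw [LA_sqp hd hN, LA_sqp hd' hN]
  exact h _ (fund1_Dm (sqp_spec hN).1) n

/-- **passage to the twists by `d`** -/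
theorem _root_.Vale.Agent.P004H.H641.SameL.tw {a b a' b' : ℤ} (h : SameL a b a' b') {d : ℤ}
    (h0 : d ≠ 0) : SameL (a * d ^ 2) (b * d ^ 3) (a' * d ^ 2) (b' * d ^ 3) := by
  intro D hD n
  have e1 : ∀ x : ℤ, x * d ^ 2 * D ^ 2 = x * (d * D) ^ 2 := fun x => by ring
  have e2 : ∀ x : ℤ, x * d ^ 3 * D ^ 3 = x * (d * D) ^ 3 := fun x => by ring
  rw [e1, e2, e1, e2]
  exact h (d * D) (mul_ne_zero h0 hD) n

/-! ### the curves 11a2 and 11a3 -/

/-- `y² + y = x³ - x² - 7820 x - 263580` has the same twisted `L`-functions as `X_0(11)` -/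
def St112 : Prop := SameF (-10135152) (-12419196912) (-13392) (-1080432)

/-- `y² + y = x³ - x²` has the same twisted `L`-functions as `X_0(11)` -/
def St113 : Prop := SameF (-432) 8208 (-13392) (-1080432)

/-- the condition `j(E) = -52893159101157376/11` for `E : y² = x³ + a x + b` -/
def J112 (a b : ℤ) : Prop := 11 * (6912 * a ^ 3) = -52893159101157376 * (4 * a ^ 3 + 27 * b ^ 2)

/-- the condition `j(E) = -4096/11` for `E : y² = x³ + a x + b` -/
def J113 (a b : ℤ) : Prop := 11 * (6912 * a ^ 3) = -4096 * (4 * a ^ 3 + 27 * b ^ 2)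

theorem sameL_J112 (h2 : St112) {a b : ℤ} (hd : 4 * a ^ 3 + 27 * b ^ 2 ≠ 0) (hj : J112 a b) :
    ∃ e : ℤ, e ≠ 0 ∧ SameL a b (-13392 * e ^ 2) (-1080432 * e ^ 3) := by
  unfold J112 at hj
  have ha : a ≠ 0 := by
    rintro rfl
    have hb2 : b ^ 2 = 0 := by omega
    apply hd
    rw [hb2]
    norm_num
  have hb : b ≠ 0 := by
    rintro rfl
    have ha3 : a ^ 3 = 0 := by omega
    apply hd
    rw [ha3]
    norm_num
  obtain ⟨e, he, hS⟩ := sameL_j (A := -10135152) (B := -12419196912) hd ha hb (by norm_num)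
    (by norm_num) (by linear_combination 729 * hj)
  exact ⟨e, he, hS.trans ((h2.same (by norm_num) (by norm_num)).tw he)⟩

theorem sameL_J113 (h3 : St113) {a b : ℤ} (hd : 4 * a ^ 3 + 27 * b ^ 2 ≠ 0) (hj : J113 a b) :
    ∃ e : ℤ, e ≠ 0 ∧ SameL a b (-13392 * e ^ 2) (-1080432 * e ^ 3) := by
  unfold J113 at hj
  have ha : a ≠ 0 := by
    rintro rfl
    have hb2 : b ^ 2 = 0 := by omega
    apply hd
    rw [hb2]
    norm_num
  have hb : b ≠ 0 := by
    rintro rfl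
    have ha3 : a ^ 3 = 0 := by omega
    apply hd
    rw [ha3]
    norm_num
  obtain ⟨e, he, hS⟩ := sameL_j (A := -432) (B := 8208) hd ha hb (by norm_num)
    (by norm_num) (by linear_combination 729 * hj)
  exact ⟨e, he, hS.trans ((h3.same (by norm_num) (by norm_num)).tw he)⟩

/-- the condition that `E : y² = x³ + a x + b` has the `j`-invariant of a curve of conductor
`11` -/
def JJ (a b : ℤ) : Prop := J11 a b ∨ J112 a b ∨ J113 a b

/-- **all curves which are isogenous to a twist of `X_0(11)`** -/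
theorem sameL_JJ (h2 : St112) (h3 : St113) {a b : ℤ} (hd : 4 * a ^ 3 + 27 * b ^ 2 ≠ 0)
    (hj : JJ a b) : ∃ e : ℤ, e ≠ 0 ∧ SameL a b (-13392 * e ^ 2) (-1080432 * e ^ 3) := by
  rcases hj with h | h | h
  · exact sameL_J11 hd h
  · exact sameL_J112 h2 hd h
  · exact sameL_J113 h3 hd h

/-- part (a) for all of them -/
theorem main_JJ (hG : StMLG) (hEnt : StLent) (hPar : StLparity) (h : BaseK) (h2 : St112)
    (h3 : St113) {a b : ℤ} (hd : 4 * a ^ 3 + 27 * b ^ 2 ≠ 0) (hj : JJ a b) :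
    Modl a b ∧ OddHalf a b := by
  obtain ⟨e, he, hS⟩ := sameL_JJ h2 h3 hd hj
  obtain ⟨-, h4, h5⟩ := main_all hG hEnt hPar h he
  exact ⟨hS.modl h4, hS.oddHalf h5⟩

end Vale.Agent.P004H.H666
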