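import Vale.Agent.P004H.H666.Iso2
import Vale.Agent.P004H.H742.BaseF
import Vale.Agent.P004H.H204.Tr
import Vale.Agent.P004H.H924.E2d
import Vale.Agent.P004H.H924.E3d

/-!
# P004H: the isogenous curves, unconditionally
-/

namespace Vale.Agent.P004H.H666

open P004G P004G.ML Vale.Agent.P004H.H641

theorem st112 : St112 := H924.E2.iso fun _ hp h11 => H204.tr2 hp h11

theorem st113 : St113 := H924.E3.iso fun _ hp h11 => H204.tr3 hp h11

/-- every curve with one of the three `j`-invariants -/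
theorem sameL_JJF {a b : ℤ} (hd : 4 * a ^ 3 + 27 * b ^ 2 ≠ 0) (hj : JJ a b) :
    ∃ e : ℤ, e ≠ 0 ∧ SameL a b (-13392 * e ^ 2) (-1080432 * e ^ 3) :=
  sameL_JJ st112 st113 hd hj

theorem main_JJF (hG : StMLG) (hEnt : StLent) (hPar : StLparity) {a b : ℤ}
    (hd : 4 * a ^ 3 + 27 * b ^ 2 ≠ 0) (hj : JJ a b) : Modl a b ∧ OddHalf a b :=
  main_JJ hG hEnt hPar H742.baseKF st112 st113 hd hj

end Vale.Agent.P004H.H666
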